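import Vale.Agent.P133.R2.H307.Spec2
import Mathlib.Topology.PartitionOfUnity
import Mathlib.Topology.ContinuousMap.Compact

set_option autoImplicit false

namespace Vale.Agent.P133.R2.H307

open Vale.Agent.P133.H832 Topology

universe u v

/-- Finite partitions of unity with sum at most one. -/
lemma H321.exists_part {X : Type v} [TopologicalSpace X] [LocallyCompactSpace X] [T2Space X]
    {n : ℕ} {K : Set X} (hK : IsCompact K) (U : Fin n → Set X) (hU : ∀ i, IsOpen (U i))
    (hKU : K ⊆ ⋃ i, U i) : ∃ g : Fin n → C(X, ℝ), (∀ i t, 0 ≤ g i t ∧ g i t ≤ 1) ∧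
      (∀ i t, t ∉ U i → g i t = 0) ∧ (∀ t, ∑ i, g i t ≤ 1) ∧ ∀ t ∈ K, ∑ i, g i t = 1 := by
  obtain ⟨f, hf1, hf2, hf3, -⟩ := exists_continuous_sum_one_of_isOpen_isCompact hU hK hKU
  have hpos : ∀ t, 0 < max 1 (∑ i, f i t) := fun t => lt_of_lt_of_le one_pos (le_max_left _ _)
  have hs0 : ∀ t, 0 ≤ ∑ i, f i t := fun t => Finset.sum_nonneg fun i _ => (hf3 i t).1
  refine ⟨fun i => ⟨fun t => f i t / max 1 (∑ j, f j t), ?_⟩, ?_, ?_, ?_, ?_⟩
  · refine (f i).continuous.div ?_ fun t => (hpos t).ne'
    exact continuous_const.max (continuous_finsetSum _ fun j _ => (f j).continuous)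
  · intro i t
    refine ⟨div_nonneg (hf3 i t).1 (hpos t).le, ?_⟩
    rw [ContinuousMap.coe_mk, div_le_one (hpos t)]
    exact (hf3 i t).2.trans (le_max_left _ _)
  · intro i t ht
    have h0 : f i t = 0 := by
      by_contra h
      exact ht (hf1 i (subset_closure h))
    rw [ContinuousMap.coe_mk, h0, zero_div]
  · intro t
    simp only [ContinuousMap.coe_mk]
    rw [← Finset.sum_div, div_le_one (hpos t)]
    exact le_max_right _ _
  · intro t ht
    have h1 : ∑ i, f i t = 1 := by
      have := hf2 ht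
      simpa using this
    simp only [ContinuousMap.coe_mk]
    rw [← Finset.sum_div, h1, max_self, div_one]

theorem specExt : SpecExt.{u, v} := by
  intro X _ _ _ B _ A _ π hsurj hnorm _ hmul a K ha hK F
  have hcs : CompactSpace K := isCompact_iff_compactSpace.1 hK
  have hinj : ∀ x y : A, (∀ t, π t x = π t y) → x = y := by
    intro x y h
    rw [← sub_eq_zero, ← norm_le_zero_iff]
    refine hnorm _ 0 le_rfl fun t => ?_
    rw [map_sub, h t, sub_self, norm_zero]
  -- multiples of elements of `herS a` by functions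
  have hmulS : ∀ g : C(X, ℝ), (∀ t, 0 ≤ g t ∧ g t ≤ 1) → ∀ f ∈ herS a,
      ∃ b ∈ herS a, ∀ t, π t b = (g t : ℂ) • π t f := by
    intro g hg f hf
    obtain ⟨b, hb⟩ := hmul g hg f
    refine ⟨b, ⟨?_, ?_⟩, hb⟩
    · have h1 := hf.1
      rw [SetLike.mem_coe, ← SetLike.mem_coe, Submodule.topologicalClosure_coe,
        Metric.mem_closure_iff] at h1 ⊢
      intro ε hε
      obtain ⟨z, hz, hz2⟩ := h1 (ε / 2) (half_pos hε)
      obtain ⟨x, rfl⟩ := hz
      obtain ⟨y, hy⟩ := hmul g hg x
      refine ⟨_, ⟨y, rfl⟩, ?_⟩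
      rw [dist_eq_norm] at hz2 ⊢
      refine lt_of_le_of_lt (hnorm _ (ε / 2) (half_pos hε).le fun t => ?_) (half_lt_self hε)
      have e1 : π t (b - ((LinearMap.mulLeft ℝ a).comp (LinearMap.mulRight ℝ a)) y) =
          (g t : ℂ) • π t (f - ((LinearMap.mulLeft ℝ a).comp (LinearMap.mulRight ℝ a)) x) := by
        simp only [LinearMap.comp_apply, LinearMap.mulLeft_apply, LinearMap.mulRight_apply,
          map_sub, map_mul, hb, hy, smul_sub, smul_mul_assoc, mul_smul_comm]
      rw [e1, norm_smul, Complex.norm_real, Real.norm_of_nonneg (hg t).1]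
      calc _ ≤ 1 * ‖f - ((LinearMap.mulLeft ℝ a).comp (LinearMap.mulRight ℝ a)) x‖ :=
            mul_le_mul (hg t).2 (NonUnitalStarAlgHom.norm_apply_le (π t) _) (norm_nonneg _)
              zero_le_one
        _ ≤ ε / 2 := by rw [one_mul]; exact hz2.le
    · have h2 : star f = f := hf.2
      change star b = b
      refine hinj _ _ fun t => ?_
      rw [map_star, hb, star_smul, ← map_star, h2]
      simp
  -- one step
  have step : ∀ (F : C(K, herS a)) (ε : ℝ), 0 < ε → ∃ (d : A) (G : C(K, herS a)),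
      d ∈ herS a ∧ ‖d‖ ≤ ‖F‖ ∧ ‖G‖ ≤ ε ∧ ∀ t : K, π t d = π t (F t : A) - π t (G t : A) := by
    intro F ε hε
    have hU : ∀ t : K, ∃ U : Set X, IsOpen U ∧ (t : X) ∈ U ∧
        ∀ s : K, (s : X) ∈ U → ‖F s - F t‖ < ε := by
      intro t
      have h1 : IsOpen {s : K | ‖F s - F t‖ < ε} :=
        isOpen_lt (continuous_norm.comp (F.continuous.sub continuous_const)) continuous_const
      obtain ⟨U, hU, hUe⟩ := isOpen_induced_iff.1 h1
      refine ⟨U, hU, ?_, fun s hs => ?_⟩
      · have : t ∈ (Subtype.val ⁻¹' U : Set K) := by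
          rw [hUe]
          simpa using hε
        exact this
      · have : s ∈ (Subtype.val ⁻¹' U : Set K) := hs
        rw [hUe] at this
        exact this
    choose U hUo hUm hUF using hU
    obtain ⟨S, hS⟩ := hK.elim_finite_subcover U hUo
      (fun t ht => Set.mem_iUnion.2 ⟨⟨t, ht⟩, hUm ⟨t, ht⟩⟩)
    set e := S.equivFin.symm with he
    obtain ⟨g, hg1, hg2, hg3, hg4⟩ := H321.exists_part hK (fun i => U (e i).1)
      (fun i => hUo _) (fun t ht => by
        obtain ⟨s, hs⟩ := Set.mem_iUnion.1 (hS ht)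
        obtain ⟨hsS, hts⟩ := Set.mem_iUnion.1 hs
        refine Set.mem_iUnion.2 ⟨e.symm ⟨s, hsS⟩, ?_⟩
        rw [Equiv.apply_symm_apply]
        exact hts)
    have hb : ∀ i, ∃ b ∈ herS a, ∀ t, π t b = (g i t : ℂ) • π t (F (e i).1 : A) := fun i =>
      hmulS (g i) (hg1 i) _ (F (e i).1).2
    choose b hbS hb using hb
    refine ⟨∑ i, b i, ⟨fun t => F t - ∑ i, g i t • F (e i).1, ?_⟩,
      Submodule.sum_mem _ fun i _ => hbS i, ?_, ?_, ?_⟩
    · refine F.continuous.sub (continuous_finsetSum _ fun i _ => ?_)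
      exact ((g i).continuous.comp continuous_subtype_val).smul continuous_const
    · refine hnorm _ _ (norm_nonneg _) fun t => ?_
      rw [map_sum]
      calc ‖∑ i, π t (b i)‖ ≤ ∑ i, ‖π t (b i)‖ := norm_sum_le _ _
        _ ≤ ∑ i, g i t * ‖F‖ := by
            refine Finset.sum_le_sum fun i _ => ?_
            rw [hb, norm_smul, Complex.norm_real, Real.norm_of_nonneg (hg1 i t).1]
            refine mul_le_mul_of_nonneg_left ?_ (hg1 i t).1
            exact (NonUnitalStarAlgHom.norm_apply_le (π t) _).trans (F.norm_coe_le_norm _)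
        _ ≤ 1 * ‖F‖ := by
            rw [← Finset.sum_mul]
            exact mul_le_mul_of_nonneg_right (hg3 t) (norm_nonneg _)
        _ = ‖F‖ := one_mul _
    · rw [ContinuousMap.norm_le _ hε.le]
      intro t
      have e1 : F t - ∑ i, g i t • F (e i).1 = ∑ i, g i t • (F t - F (e i).1) := by
        simp only [smul_sub, Finset.sum_sub_distrib]
        rw [← Finset.sum_smul, hg4 t t.2, one_smul]
      rw [ContinuousMap.coe_mk, e1]
      calc _ ≤ ∑ i, ‖g i t • (F t - F (e i).1)‖ := norm_sum_le _ _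
        _ ≤ ∑ i, g i t * ε := by
            refine Finset.sum_le_sum fun i _ => ?_
            rw [norm_smul, Real.norm_of_nonneg (hg1 i t).1]
            by_cases h0 : (t : X) ∈ U (e i).1
            · exact mul_le_mul_of_nonneg_left (hUF _ t h0).le (hg1 i t).1
            · rw [hg2 i t h0, zero_mul, zero_mul]
        _ = ε := by rw [← Finset.sum_mul, hg4 t t.2, one_mul]
    · intro t
      rw [← map_sub]
      have e1 : (F t : A) - ((F t - ∑ i, g i t • F (e i).1 : herS a) : A) =
          ∑ i, g i t • (F (e i).1 : A) := by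
        push_cast
        abel
      refine Eq.trans ?_ (congrArg (π t) e1).symm
      rw [map_sum, map_sum]
      refine Finset.sum_congr rfl fun i _ => ?_
      rw [hb]
      have : g i t • (F (e i).1 : A) = (g i t : ℂ) • (F (e i).1 : A) := by
        rw [Complex.coe_smul]
      rw [this, map_smul]
  -- iteration
  have step2 : ∀ F : C(K, herS a), ∃ (d : A) (G : C(K, herS a)),
      d ∈ herS a ∧ ‖d‖ ≤ ‖F‖ ∧ ‖G‖ ≤ ‖F‖ / 2 ∧ ∀ t : K, π t d = π t (F t : A) - π t (G t : A) := by
    intro F
    by_cases h0 : F = 0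
    · refine ⟨0, 0, Submodule.zero_mem _, by simp, by rw [norm_zero]; positivity,
        fun t => ?_⟩
      rw [h0]
      simp
    · exact step F (‖F‖ / 2) (half_pos (norm_pos_iff.2 h0))
  choose D R hD1 hD2 hR hDR using step2
  set Fn : ℕ → C(K, herS a) := fun n => R^[n] F with hFn
  have hFs : ∀ n, Fn (n + 1) = R (Fn n) := fun n => Function.iterate_succ_apply' R n F
  have hFb : ∀ n, ‖Fn n‖ ≤ ‖F‖ * (1 / 2) ^ n := by
    intro n
    induction n with
    | zero => simp [hFn]
    | succ n ih =>
      rw [hFs]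
      refine (hR _).trans ?_
      rw [pow_succ]
      linarith
  have hsum : Summable fun n => D (Fn n) := by
    refine Summable.of_norm_bounded (g := fun n => ‖F‖ * (1 / 2) ^ n) ?_ fun n =>
      (hD2 _).trans (hFb n)
    exact (summable_geometric_of_lt_one (by norm_num) (by norm_num)).mul_left _
  have htend := hsum.hasSum.tendsto_sum_nat
  have hclosed : IsClosed ((herS a : Submodule ℝ A) : Set A) := by
    have h1 : IsClosed (((LinearMap.range ((LinearMap.mulLeft ℝ a).comp
      (LinearMap.mulRight ℝ a))).topologicalClosure : Submodule ℝ A) : Set A) :=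
      Submodule.isClosed_topologicalClosure _
    have h2 : IsClosed ((selfAdjoint.submodule ℝ A : Submodule ℝ A) : Set A) := by
      have : ((selfAdjoint.submodule ℝ A : Submodule ℝ A) : Set A) = {x | star x = x} := rfl
      rw [this]
      exact isClosed_eq continuous_star continuous_id
    exact h1.inter h2
  refine ⟨∑' n, D (Fn n), hclosed.mem_of_tendsto htend (Filter.Eventually.of_forall fun n =>
    Submodule.sum_mem _ fun i _ => hD1 _), fun t => ?_⟩
  have hcont : Continuous (π t) := by
    refine AddMonoidHomClass.continuous_of_bound (π t) 1 fun x => ?_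
    rw [one_mul]
    exact NonUnitalStarAlgHom.norm_apply_le (π t) x
  have h3 := (hcont.tendsto _).comp htend
  have h4 : ∀ n, π t (∑ i ∈ Finset.range n, D (Fn i)) = π t (F t : A) - π t (Fn n t : A) := by
    intro n
    induction n with
    | zero => simp [hFn]
    | succ n ih =>
      rw [Finset.sum_range_succ, map_add, ih, hDR, hFs]
      abel
  have h5 : Filter.Tendsto (fun n => π t (F t : A) - π t (Fn n t : A)) Filter.atTop
      (𝓝 (π t (F t : A) - 0)) := by
    refine tendsto_const_nhds.sub ?_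
    refine squeeze_zero_norm (a := fun n => ‖F‖ * (1 / 2) ^ n) (fun n => ?_) ?_
    · exact (NonUnitalStarAlgHom.norm_apply_le (π t) _).trans
        (((Fn n).norm_coe_le_norm t).trans (hFb n))
    · have := (tendsto_pow_atTop_nhds_zero_of_lt_one (r := (1 / 2 : ℝ)) (by norm_num)
        (by norm_num)).const_mul ‖F‖
      simpa using this
  have h6 : Filter.Tendsto (fun n => π t (∑ i ∈ Finset.range n, D (Fn i))) Filter.atTop
      (𝓝 (π t (F t : A) - 0)) := by
    simp only [h4]
    exact h5
  have h7 := tendsto_nhds_unique h3 h6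
  rw [h7, sub_zero]

end Vale.Agent.P133.R2.H307
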