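import Vale.Agent.P133.R2.H307.Spec
import Mathlib.Analysis.CStarAlgebra.ApproximateUnit
import Mathlib.Topology.PartitionOfUnity

set_option autoImplicit false

namespace Vale.Agent.P133.R2.H307

open Vale.Agent.P133.H832 Topology

universe u v

/-- If `e * b` is in the closed subspace `P` for all `e` then `b` is. -/
lemma H321.mem_of_mul {A : Type u} [NonUnitalCStarAlgebra A] {P : Submodule ℂ A}
    (hP : IsClosed (P : Set A)) {b : A} (h : ∀ e : A, e * b ∈ P) : b ∈ P := by
  let _ := CStarAlgebra.spectralOrder A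
  let _ := CStarAlgebra.spectralOrderedRing A
  have hu := CStarAlgebra.increasingApproximateUnit A
  have := hu.neBot
  exact hP.mem_of_tendsto (hu.tendsto_mul_right b) (Filter.Eventually.of_forall fun e => h e)

theorem specLoc : SpecLoc.{u, v} := by
  intro X _ _ _ B _ A _ π hπ P hP c hc
  obtain ⟨hsurj, hnorm, hcont, hmul⟩ := hπ
  -- multiples of elements of `P` by functions
  have hPm : ∀ f : C(X, ℝ), (∀ t, 0 ≤ f t ∧ f t ≤ 1) → ∀ p ∈ P,
      ∃ b ∈ P, ∀ t, π t b = (f t : ℂ) • π t p := by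
    intro f hf p hp
    obtain ⟨b, hb⟩ := hmul f hf p
    refine ⟨b, H321.mem_of_mul hP.1 fun e => ?_, hb⟩
    obtain ⟨g, hg⟩ := hmul f hf e
    have h1 : e * b = g * p := by
      rw [← sub_eq_zero, ← norm_le_zero_iff]
      refine hnorm _ 0 le_rfl fun t => ?_
      rw [map_sub, map_mul, map_mul, hb, hg, mul_smul_comm, smul_mul_assoc, sub_self, norm_zero]
    rw [h1]
    exact (hP.2 g p hp).1
  have hcl : c ∈ closure (P : Set A) := by
    rw [Metric.mem_closure_iff]
    intro ε hε
    choose p hpP hp using fun t => hc t (ε / 2) (by positivity)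
    have hopen : ∀ t, IsOpen {s | ‖π s (c - p t)‖ < ε / 2} := fun t =>
      isOpen_lt (hcont _) continuous_const
    obtain ⟨F, hF⟩ := isCompact_univ.elim_finite_subcover
      (fun t => {s | ‖π s (c - p t)‖ < ε / 2}) hopen
      (fun t _ => Set.mem_iUnion.2 ⟨t, hp t⟩)
    obtain ⟨φ, hφ⟩ := PartitionOfUnity.exists_isSubordinate isClosed_univ
      (fun t : F => {s | ‖π s (c - p t)‖ < ε / 2}) (fun t => hopen t) (fun s hs => by
        obtain ⟨t, ht⟩ := Set.mem_iUnion.1 (hF hs)
        obtain ⟨htF, hts⟩ := Set.mem_iUnion.1 ht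
        exact Set.mem_iUnion.2 ⟨⟨t, htF⟩, hts⟩)
    have hb : ∀ t : F, ∃ b ∈ P, ∀ s, π s b = (φ t s : ℂ) • π s (p t) := fun t =>
      hPm (φ t) (fun s => ⟨φ.nonneg t s, φ.le_one t s⟩) (p t) (hpP t)
    choose b hbP hb using hb
    refine ⟨∑ t, b t, P.sum_mem fun t _ => hbP t, ?_⟩
    rw [dist_eq_norm]
    refine lt_of_le_of_lt (hnorm _ (ε / 2) (by positivity) fun s => ?_) (half_lt_self hε)
    have hsum : ∑ t, φ t s = 1 := by
      rw [← finsum_eq_sum_of_fintype]
      exact φ.sum_eq_one (Set.mem_univ s)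
    have h1 : π s (c - ∑ t, b t) = ∑ t, (φ t s : ℂ) • π s (c - p t) := by
      rw [map_sub, map_sum]
      simp only [hb, map_sub, smul_sub, Finset.sum_sub_distrib]
      rw [← Finset.sum_smul]
      have : ∑ t, (φ t s : ℂ) = 1 := by
        exact_mod_cast hsum
      rw [this, one_smul]
    rw [h1]
    calc ‖∑ t, (φ t s : ℂ) • π s (c - p t)‖ ≤ ∑ t, ‖(φ t s : ℂ) • π s (c - p t)‖ :=
          norm_sum_le _ _
      _ ≤ ∑ t, φ t s * (ε / 2) := by
          refine Finset.sum_le_sum fun t _ => ?_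
          rw [norm_smul, Complex.norm_real, Real.norm_of_nonneg (φ.nonneg t s)]
          by_cases h0 : φ t s = 0
          · rw [h0, zero_mul, zero_mul]
          · have hs : s ∈ tsupport (φ t) := subset_closure h0
            exact mul_le_mul_of_nonneg_left (hφ t hs).le (φ.nonneg t s)
      _ = ε / 2 := by rw [← Finset.sum_mul, hsum, one_mul]
  rwa [hP.1.closure_eq] at hcl

end Vale.Agent.P133.R2.H307
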